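import Mathlib.Analysis.InnerProductSpace.PiL2
import Mathlib.Geometry.Euclidean.Angle.Unoriented.Basic
import Mathlib.Combinatorics.SimpleGraph.Basic

/-! Complements of spherical cap graphs; discs and exteriors of discs of the plane. -/

set_option autoImplicit false

namespace Vale.Agent.P305.R2.H862

/-- The closed cap with centre `c` and angular radius `r` of the unit sphere of three-dimensional
Euclidean space: the unit vectors which make an angle of at most `r` with `c`. -/
def cap (c : EuclideanSpace ℝ (Fin 3)) (r : ℝ) : Set (EuclideanSpace ℝ (Fin 3)) :=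
  {x | ‖x‖ = 1 ∧ InnerProductGeometry.angle x c ≤ r}

/-- `G` is the complement of a spherical cap graph: there are closed caps of the unit sphere, one
for every vertex, of arbitrary radii `≥ 0` (also larger than `π / 2`), such that two different
vertices are adjacent in `G` iff their caps are disjoint. -/
def IsCoCap {V : Type} (G : SimpleGraph V) : Prop :=
  ∃ (c : V → EuclideanSpace ℝ (Fin 3)) (r : V → ℝ), (∀ v, ‖c v‖ = 1 ∧ 0 ≤ r v) ∧
    ∀ u v, u ≠ v → (G.Adj u v ↔ Disjoint (cap (c u) (r u)) (cap (c v) (r v)))

/-- `G` is given by angles: there are nonzero vectors `c v` of three-dimensional Euclidean space and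
real numbers `r v` (also negative ones), such that two different vertices are adjacent in `G` iff
the angle of their vectors is larger than the sum of their numbers. -/
def IsCoAngle {V : Type} (G : SimpleGraph V) : Prop :=
  ∃ (c : V → EuclideanSpace ℝ (Fin 3)) (r : V → ℝ), (∀ v, c v ≠ 0) ∧
    ∀ u v, u ≠ v → (G.Adj u v ↔ r u + r v < InnerProductGeometry.angle (c u) (c v))

/-- The closed disc of the Euclidean plane with centre `p` and radius `ρ`, or the closed exterior
of its interior. -/
def region (p : EuclideanSpace ℝ (Fin 2)) (ρ : ℝ) (exterior : Bool) :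
    Set (EuclideanSpace ℝ (Fin 2)) :=
  if exterior then {x | ρ ≤ dist x p} else {x | dist x p ≤ ρ}

/-- `G` is the complement of the intersection graph of a family of closed discs and closed
exteriors of discs of the Euclidean plane (of arbitrary radii `≥ 0`): two different vertices are
adjacent in `G` iff their regions are disjoint. -/
def IsCoDiskExterior {V : Type} (G : SimpleGraph V) : Prop :=
  ∃ (p : V → EuclideanSpace ℝ (Fin 2)) (ρ : V → ℝ) (e : V → Bool), (∀ v, 0 ≤ ρ v) ∧
    ∀ u v, u ≠ v → (G.Adj u v ↔ Disjoint (region (p u) (ρ u) (e u)) (region (p v) (ρ v) (e v)))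

end Vale.Agent.P305.R2.H862
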