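import Vale.Agent.P305.R2.H862.Geom
import Vale.Agent.P305.R2.H862.Defs
import Vale.Agent.P305.H529.Pair

/-! The complement of a spherical cap graph has no two odd cycles which are vertex-disjoint and
non-adjacent. -/

set_option autoImplicit false

namespace Vale.Agent.P305.R2.H862

open Vale.Agent.P305.H529 InnerProductGeometry Module
open scoped Topology RealInnerProductSpace

/-- A unit vector orthogonal to a given unit vector. -/
theorem exists_orth (c : E3) (hc : ‖c‖ = 1) : ∃ w : E3, ‖w‖ = 1 ∧ ⟪c, w⟫ = 0 := by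
  have hc0 : c ≠ 0 := by
    rintro rfl
    simp at hc
  have : Fact (finrank ℝ E3 = 2 + 1) := ⟨by simp⟩
  have h2 : finrank ℝ (ℝ ∙ c)ᗮ = 2 := Submodule.finrank_orthogonal_span_singleton hc0
  have hpos : 0 < finrank ℝ (ℝ ∙ c)ᗮ := by omega
  obtain ⟨v, hv⟩ := finrank_pos_iff_exists_ne_zero.1 hpos
  have hv0 : (v : E3) ≠ 0 := fun h => hv (Subtype.ext h)
  refine ⟨‖(v : E3)‖⁻¹ • (v : E3), ?_, ?_⟩
  · rw [norm_smul, norm_inv, norm_norm, inv_mul_cancel₀ (norm_ne_zero_iff.2 hv0)]
  · rw [inner_smul_right]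
    have := Submodule.mem_orthogonal_singleton_iff_inner_right.1 v.2
    rw [this, mul_zero]

/-- The second unit vector in an orthogonal frame of a great circle through `c` and `c'`. -/
theorem exists_frame (c c' : E3) (hc : ‖c‖ = 1) (hc' : ‖c'‖ = 1) :
    ∃ w : E3, ‖w‖ = 1 ∧ ⟪c, w⟫ = 0 ∧
      c' = Real.cos (angle c c') • c + Real.sin (angle c c') • w := by
  have hcos : Real.cos (angle c c') = ⟪c, c'⟫ := by
    rw [cos_angle, hc, hc']; simp
  by_cases hs : Real.sin (angle c c') = 0
  · obtain ⟨w, hw, hw0⟩ := exists_orth c hc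
    refine ⟨w, hw, hw0, ?_⟩
    rw [hs, zero_smul, add_zero]
    have hsq := Real.sin_sq_add_cos_sq (angle c c')
    rw [hs] at hsq
    have h1 : ‖c' - Real.cos (angle c c') • c‖ ^ 2 = 0 := by
      rw [norm_sub_sq_real, norm_smul, mul_pow, hc, hc', inner_smul_right, real_inner_comm,
        ← hcos, Real.norm_eq_abs, sq_abs]
      linarith
    have h2 := pow_eq_zero_iff (two_ne_zero) |>.1 h1
    rw [norm_eq_zero, sub_eq_zero] at h2
    exact h2
  · have hpos : 0 < Real.sin (angle c c') :=
      lt_of_le_of_ne (Real.sin_nonneg_of_nonneg_of_le_pi (angle_nonneg _ _) (angle_le_pi _ _))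
        (Ne.symm hs)
    refine ⟨(Real.sin (angle c c'))⁻¹ • (c' - Real.cos (angle c c') • c), ?_, ?_, ?_⟩
    · have h1 : ‖c' - Real.cos (angle c c') • c‖ ^ 2 = Real.sin (angle c c') ^ 2 := by
        rw [norm_sub_sq_real, norm_smul, mul_pow, hc, hc', inner_smul_right, real_inner_comm,
          ← hcos, Real.norm_eq_abs, sq_abs]
        have hsq := Real.sin_sq_add_cos_sq (angle c c')
        linarith
      have h2 : ‖c' - Real.cos (angle c c') • c‖ = Real.sin (angle c c') :=
        (pow_left_inj₀ (norm_nonneg _) hpos.le two_ne_zero).1 h1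
      rw [norm_smul, h2, Real.norm_eq_abs, abs_of_pos (inv_pos.2 hpos),
        inv_mul_cancel₀ hs]
    · rw [inner_smul_right, inner_sub_right, inner_smul_right, ← hcos,
        real_inner_self_eq_norm_sq, hc]
      ring
    · rw [smul_smul, mul_inv_cancel₀ hs, one_smul]
      abel

/-- Caps meet when the angle of the centres is at most the sum of the radii. -/
theorem cap_meet {c c' : E3} {r r' : ℝ} (hc : ‖c‖ = 1) (hc' : ‖c'‖ = 1) (hr : 0 ≤ r)
    (hr' : 0 ≤ r') (h : angle c c' ≤ r + r') : ¬ Disjoint (cap c r) (cap c' r') := by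
  rw [Set.not_disjoint_iff]
  have hc'0 : c' ≠ 0 := by rintro rfl; simp at hc'
  have hc0 : c ≠ 0 := by rintro rfl; simp at hc
  rcases le_total (angle c c') r with h1 | h1
  · refine ⟨c', ⟨hc', ?_⟩, hc', ?_⟩
    · rwa [angle_comm]
    · rwa [angle_self hc'0]
  · obtain ⟨w, hw, hw0, hcw⟩ := exists_frame c c' hc hc'
    have hθ := angle_le_pi c c'
    obtain ⟨θ, hθd⟩ : ∃ θ, θ = angle c c' := ⟨_, rfl⟩
    rw [← hθd] at hcw h1 hθ h
    have hx : ‖Real.cos r • c + Real.sin r • w‖ = 1 := by
      have : ‖Real.cos r • c + Real.sin r • w‖ ^ 2 = 1 := by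
        rw [norm_add_sq_real, norm_smul, norm_smul, hc, hw, inner_smul_left, inner_smul_right,
          hw0]
        simp only [Real.norm_eq_abs, mul_one, sq_abs, mul_zero, add_zero]
        rw [Real.cos_sq_add_sin_sq]
      exact (pow_eq_one_iff_of_nonneg (norm_nonneg _) two_ne_zero).1 this
    have i1 : ⟪Real.cos r • c + Real.sin r • w, c⟫ = Real.cos r := by
      rw [inner_add_left, inner_smul_left, inner_smul_left, real_inner_self_eq_norm_sq, hc,
        real_inner_comm, hw0]
      simp
    have i2 : ⟪Real.cos r • c + Real.sin r • w, c'⟫ = Real.cos (θ - r) := by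
      rw [hcw, inner_add_right, inner_smul_right, i1, inner_smul_right, inner_add_left,
        inner_smul_left, inner_smul_left, hw0, real_inner_self_eq_norm_sq, hw, Real.cos_sub]
      simp
    refine ⟨Real.cos r • c + Real.sin r • w, ⟨hx, ?_⟩, hx, ?_⟩
    · rw [angle, hx, hc, i1]
      simp only [mul_one, div_one]
      rw [Real.arccos_cos hr (by linarith)]
    · rw [angle, hx, hc', i2]
      simp only [mul_one, div_one]
      rw [Real.arccos_cos (by linarith) (by linarith)]
      linarith

/-- Caps meet iff the angle of the centres is at most the sum of the radii. -/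
theorem cap_disjoint_iff {c c' : E3} {r r' : ℝ} (hc : ‖c‖ = 1) (hc' : ‖c'‖ = 1) (hr : 0 ≤ r)
    (hr' : 0 ≤ r') : Disjoint (cap c r) (cap c' r') ↔ r + r' < angle c c' := by
  constructor
  · intro h
    by_contra hn
    exact cap_meet hc hc' hr hr' (not_lt.1 hn) h
  · intro h
    rw [Set.disjoint_left]
    rintro x ⟨-, h1⟩ ⟨-, h2⟩
    have := angle_le_angle_add_angle c x c'
    rw [angle_comm c x] at this
    linarith

/-- A graph given by angles has no two non-adjacent vertex sets which induce non-bipartite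
graphs. -/
theorem angle_pair {V : Type} [Fintype V] (G : SimpleGraph V) (hG : IsCoAngle G) (S T : Set V)
    (hST : ∀ u ∈ S, ∀ v ∈ T, u ≠ v ∧ ¬ G.Adj u v) (hS : ¬ (G.induce S).IsBipartite)
    (hT : ¬ (G.induce T).IsBipartite) : False := by
  obtain ⟨c, r, hc0, hadj⟩ := hG
  obtain ⟨s, a, hs, has, haS, haadj⟩ := exists_odd_walk G S hS
  obtain ⟨t, b, ht, hbt, hbT, hbadj⟩ := exists_odd_walk G T hT
  have far : ∀ u v, G.Adj u v → r u + r v < angle (c u) (c v) := fun u v h =>
    (hadj u v h.ne).1 h
  have near : ∀ u v, u ≠ v → ¬ G.Adj u v → angle (c u) (c v) ≤ r u + r v := by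
    intro u v huv h
    by_contra hn
    exact h ((hadj u v huv).2 (not_le.1 hn))
  let c' : Option V → E3 := fun o => o.elim 0 c
  let U : Set (Option V → E3) := {P | ∀ u u' v v' : V, G.Adj u u' → G.Adj v v' →
    (u ≠ v ∧ ¬ G.Adj u v) → (u' ≠ v' ∧ ¬ G.Adj u' v') →
    angle (P (some u)) (P (some v)) + angle (P (some u')) (P (some v')) <
      angle (P (some u)) (P (some u')) + angle (P (some v)) (P (some v'))}
  have hang : ∀ u v : V, ContinuousAt (fun P : Option V → E3 => angle (P (some u)) (P (some v)))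
      c' := by
    intro u v
    have h1 : ContinuousAt (fun y : E3 × E3 => angle y.1 y.2) (c' (some u), c' (some v)) :=
      continuousAt_angle (hc0 u) (hc0 v)
    exact ContinuousAt.comp (f := fun P : Option V → E3 => (P (some u), P (some v)))
      (g := fun y : E3 × E3 => angle y.1 y.2) h1
      (by fun_prop)
  have hU : U ∈ 𝓝 c' := by
    simp only [U]
    rw [← Filter.eventually_iff]
    refine Filter.eventually_all.2 fun u => Filter.eventually_all.2 fun u' =>
      Filter.eventually_all.2 fun v => Filter.eventually_all.2 fun v' => ?_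
    by_cases h1 : G.Adj u u'
    swap
    · exact Filter.Eventually.of_forall fun _ h => absurd h h1
    by_cases h2 : G.Adj v v'
    swap
    · exact Filter.Eventually.of_forall fun _ _ h => absurd h h2
    by_cases h3 : u ≠ v ∧ ¬ G.Adj u v
    swap
    · exact Filter.Eventually.of_forall fun _ _ _ h => absurd h h3
    by_cases h4 : u' ≠ v' ∧ ¬ G.Adj u' v'
    swap
    · exact Filter.Eventually.of_forall fun _ _ _ _ h => absurd h h4
    have e1 := far u u' h1
    have e2 := far v v' h2
    have e3 := near u v h3.1 h3.2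
    have e4 := near u' v' h4.1 h4.2
    have hlt : angle (c' (some u)) (c' (some v)) + angle (c' (some u')) (c' (some v')) <
        angle (c' (some u)) (c' (some u')) + angle (c' (some v)) (c' (some v')) := by
      simp only [c', Option.elim]
      linarith
    have := ContinuousAt.eventually_lt ((hang u v).add (hang u' v'))
      ((hang u u').add (hang v v')) hlt
    exact this.mono fun P hP _ _ _ _ => hP
  obtain ⟨P, hPU, hP⟩ := exists_gp c' U hU
  refine not_odd P hP (fun i => some (a i)) (fun j => some (b j))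
    (by simp only [has]) (by simp only [hbt]) none (fun i => by simp) (fun i => by simp)
    (fun i hi => by simpa using (haadj i hi).ne) (fun j hj => by simpa using (hbadj j hj).ne)
    (fun i j => by simpa using (hST _ (haS i) _ (hbT j)).1) ?_ ⟨hs, ht⟩
  intro i j hi hj hsep
  have ha1 := haadj i hi
  have hb1 := hbadj j hj
  have n1 := hST _ (haS i) _ (hbT j)
  have n2 := hST _ (haS (i + 1)) _ (hbT j)
  have n3 := hST _ (haS i) _ (hbT (j + 1))
  have n4 := hST _ (haS (i + 1)) _ (hbT (j + 1))
  have so : ∀ {x y : V}, x ≠ y → (some x : Option V) ≠ some y := fun h => by simpa using h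
  have q := quad
    (hP _ _ _ (so ha1.ne) (so n2.1) (so n1.1)) (hP _ _ _ (so ha1.ne) (so n4.1) (so n3.1))
    (hP _ _ _ (so hb1.ne) (so n3.1.symm) (so n1.1.symm))
    (hP _ _ _ (so hb1.ne) (so n4.1.symm) (so n2.1.symm)) hsep.1 hsep.2
  have u1 := hPU (a i) (a (i + 1)) (b j) (b (j + 1)) ha1 hb1 n1 n4
  have u2 := hPU (a i) (a (i + 1)) (b (j + 1)) (b j) ha1 hb1.symm n3 n2
  rw [angle_comm (P (some (b (j + 1)))) (P (some (b j)))] at u2
  rcases q with q | q <;> linarith

/-- Complements of spherical cap graphs are given by angles. -/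
theorem IsCoCap.isCoAngle {V : Type} {G : SimpleGraph V} (h : IsCoCap G) : IsCoAngle G := by
  obtain ⟨c, r, hcr, hadj⟩ := h
  refine ⟨c, r, fun v h => ?_, fun u v huv => ?_⟩
  · have := (hcr v).1
    rw [h] at this
    simp at this
  · rw [hadj u v huv, cap_disjoint_iff (hcr u).1 (hcr v).1 (hcr u).2 (hcr v).2]

theorem IsCoAngle.induce {V : Type} {G : SimpleGraph V} (h : IsCoAngle G) (S : Set V) :
    IsCoAngle (G.induce S) := by
  obtain ⟨c, r, hc, hadj⟩ := h
  exact ⟨fun v => c v, fun v => r v, fun v => hc v, fun u v huv =>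
    hadj u v (fun h => huv (Subtype.ext h))⟩

theorem cocap_pair {V : Type} [Fintype V] (G : SimpleGraph V) (hG : IsCoCap G) (S T : Set V)
    (hST : ∀ u ∈ S, ∀ v ∈ T, u ≠ v ∧ ¬ G.Adj u v) (hS : ¬ (G.induce S).IsBipartite)
    (hT : ¬ (G.induce T).IsBipartite) : False :=
  angle_pair G hG.isCoAngle S T hST hS hT

end Vale.Agent.P305.R2.H862
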