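import Vale.Agent.P305.R2.H862.Defs
import Mathlib.Analysis.SpecialFunctions.Trigonometric.Inverse
import Mathlib.Tactic

/-! Stereographic projection: discs and exteriors of discs are caps. -/

set_option autoImplicit false

namespace Vale.Agent.P305.R2.H862

open InnerProductGeometry
open scoped RealInnerProductSpace

/-- The Euclidean plane. -/
abbrev P2 : Type := EuclideanSpace ℝ (Fin 2)

/-- Three-dimensional Euclidean space. -/
abbrev P3 : Type := EuclideanSpace ℝ (Fin 3)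

/-- Inverse stereographic projection. -/
noncomputable def st (x : P2) : P3 :=
  !₂[2 * x 0 / (x 0 ^ 2 + x 1 ^ 2 + 1), 2 * x 1 / (x 0 ^ 2 + x 1 ^ 2 + 1),
    (x 0 ^ 2 + x 1 ^ 2 - 1) / (x 0 ^ 2 + x 1 ^ 2 + 1)]

theorem den_pos (x : P2) : 0 < x 0 ^ 2 + x 1 ^ 2 + 1 := by positivity

theorem norm3 (y : P3) : ‖y‖ ^ 2 = y 0 ^ 2 + y 1 ^ 2 + y 2 ^ 2 := by
  rw [EuclideanSpace.norm_sq_eq, Fin.sum_univ_three]
  simp

theorem inner3 (y z : P3) : ⟪y, z⟫ = y 0 * z 0 + y 1 * z 1 + y 2 * z 2 := by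
  rw [PiLp.inner_apply, Fin.sum_univ_three]
  simp only [RCLike.inner_apply, conj_trivial]
  ring

theorem norm_st (x : P2) : ‖st x‖ = 1 := by
  have h := (den_pos x).ne'
  have : ‖st x‖ ^ 2 = 1 := by
    rw [norm3]
    simp only [st, PiLp.toLp_apply, Matrix.cons_val_zero, Matrix.cons_val_one, Matrix.cons_val]
    field_simp
    ring
  exact (pow_eq_one_iff_of_nonneg (norm_nonneg _) two_ne_zero).1 this

/-- The sign of a region. -/
def sg1 (e : Bool) : ℝ := if e then -1 else 1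

/-- The normal vector of the plane which cuts the cap. -/
noncomputable def nv (p : P2) (ρ : ℝ) (e : Bool) : P3 :=
  !₂[sg1 e * (2 * p 0), sg1 e * (2 * p 1), sg1 e * (p 0 ^ 2 + p 1 ^ 2 - ρ ^ 2 - 1)]

/-- The threshold. -/
noncomputable def th (p : P2) (ρ : ℝ) (e : Bool) : ℝ := sg1 e * (p 0 ^ 2 + p 1 ^ 2 - ρ ^ 2 + 1)

theorem sg1_sq (e : Bool) : sg1 e ^ 2 = 1 := by cases e <;> norm_num [sg1]

theorem norm_nv_sq (p : P2) (ρ : ℝ) (e : Bool) :
    ‖nv p ρ e‖ ^ 2 = th p ρ e ^ 2 + 4 * ρ ^ 2 := by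
  have h := sg1_sq e
  rw [norm3]
  simp only [nv, th, PiLp.toLp_apply, Matrix.cons_val_zero, Matrix.cons_val_one, Matrix.cons_val]
  linear_combination (4 * p 0 ^ 2 + 4 * p 1 ^ 2 + (p 0 ^ 2 + p 1 ^ 2 - ρ ^ 2 - 1) ^ 2 -
    (p 0 ^ 2 + p 1 ^ 2 - ρ ^ 2 + 1) ^ 2) * h

theorem nv_ne_zero (p : P2) (ρ : ℝ) (e : Bool) : nv p ρ e ≠ 0 := by
  intro h0
  have h := sg1_sq e
  have h1 := norm_nv_sq p ρ e
  have h2 : th p ρ e ^ 2 = (p 0 ^ 2 + p 1 ^ 2 - ρ ^ 2 + 1) ^ 2 := by
    simp only [th]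
    linear_combination (p 0 ^ 2 + p 1 ^ 2 - ρ ^ 2 + 1) ^ 2 * h
  rw [h0, norm_zero, h2] at h1
  have h3 : ρ ^ 2 = 0 := by nlinarith [sq_nonneg (p 0 ^ 2 + p 1 ^ 2 - ρ ^ 2 + 1), sq_nonneg ρ]
  rw [h3] at h1
  nlinarith [sq_nonneg (p 0), sq_nonneg (p 1)]

theorem mem_region (x p : P2) (ρ : ℝ) (hρ : 0 ≤ ρ) (e : Bool) :
    x ∈ region p ρ e ↔ th p ρ e ≤ ⟪st x, nv p ρ e⟫ := by
  have hs := den_pos x
  have hd : dist x p ^ 2 = (x 0 - p 0) ^ 2 + (x 1 - p 1) ^ 2 := by
    rw [EuclideanSpace.dist_eq, Real.sq_sqrt (by positivity), Fin.sum_univ_two]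
    simp [Real.dist_eq, sq_abs]
  have key : (⟪st x, nv p ρ e⟫ - th p ρ e) * (x 0 ^ 2 + x 1 ^ 2 + 1) =
      2 * sg1 e * (ρ ^ 2 - dist x p ^ 2) := by
    rw [inner3, hd]
    simp only [st, nv, th, PiLp.toLp_apply, Matrix.cons_val_zero, Matrix.cons_val_one,
      Matrix.cons_val]
    field_simp
    ring
  have e1 : th p ρ e ≤ ⟪st x, nv p ρ e⟫ ↔ 0 ≤ 2 * sg1 e * (ρ ^ 2 - dist x p ^ 2) := by
    rw [← key, ← sub_nonneg]
    exact ⟨fun h => mul_nonneg h hs.le, fun h => nonneg_of_mul_nonneg_left h hs⟩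
  rw [e1]
  cases e
  · simp only [region, sg1, Bool.false_eq_true, if_false, Set.mem_ofPred_eq]
    rw [← abs_of_nonneg hρ, ← abs_of_nonneg (dist_nonneg (x := x) (y := p)), ← sq_le_sq,
      sq_abs, sq_abs]
    constructor <;> intro h <;> linarith
  · simp only [region, sg1, if_true, Set.mem_ofPred_eq]
    rw [← abs_of_nonneg hρ, ← abs_of_nonneg (dist_nonneg (x := x) (y := p)), ← sq_le_sq,
      sq_abs, sq_abs]
    constructor <;> intro h <;> linarith

/-- The centre of the cap of a region. -/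
noncomputable def cc (p : P2) (ρ : ℝ) (e : Bool) : P3 := ‖nv p ρ e‖⁻¹ • nv p ρ e

/-- The radius of the cap of a region. -/
noncomputable def rr (p : P2) (ρ : ℝ) (e : Bool) : ℝ := Real.arccos (th p ρ e / ‖nv p ρ e‖)

theorem norm_cc (p : P2) (ρ : ℝ) (e : Bool) : ‖cc p ρ e‖ = 1 := by
  have := norm_ne_zero_iff.2 (nv_ne_zero p ρ e)
  rw [cc, norm_smul, norm_inv, norm_norm, inv_mul_cancel₀ this]

theorem mem_cap (y : P3) (hy : ‖y‖ = 1) (p : P2) (ρ : ℝ) (e : Bool) :
    y ∈ cap (cc p ρ e) (rr p ρ e) ↔ th p ρ e ≤ ⟪y, nv p ρ e⟫ := by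
  have hN := norm_pos_iff.2 (nv_ne_zero p ρ e)
  have h1 : angle y (cc p ρ e) = angle y (nv p ρ e) := by
    rw [cc, angle_smul_right_of_pos _ _ (inv_pos.2 hN)]
  simp only [cap, Set.mem_ofPred_eq, hy, true_and]
  rw [h1, angle, rr, hy, one_mul]
  have m1 : th p ρ e / ‖nv p ρ e‖ ∈ Set.Icc (-1 : ℝ) 1 := by
    have h2 := norm_nv_sq p ρ e
    have h3 : |th p ρ e| ≤ ‖nv p ρ e‖ := by
      rw [← abs_of_pos hN, ← sq_le_sq, h2]
      nlinarith [sq_nonneg ρ]
    rw [abs_le] at h3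
    constructor
    · rw [le_div_iff₀ hN]; linarith
    · rw [div_le_one hN]; linarith
  have m2 : ⟪y, nv p ρ e⟫ / ‖nv p ρ e‖ ∈ Set.Icc (-1 : ℝ) 1 := by
    have h3 := abs_real_inner_le_norm y (nv p ρ e)
    rw [hy, one_mul, abs_le] at h3
    constructor
    · rw [le_div_iff₀ hN]; linarith
    · rw [div_le_one hN]; linarith
  rw [Real.strictAntiOn_arccos.le_iff_ge m2 m1, div_le_div_iff_of_pos_right hN]

/-- Exteriors of discs meet. -/
theorem ext_meet (p p' : P2) (ρ ρ' : ℝ) : ¬ Disjoint (region p ρ true) (region p' ρ' true) := by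
  rw [Set.not_disjoint_iff]
  let e : P2 := EuclideanSpace.single 0 1
  have he : ‖e‖ = 1 := by simp [e]
  obtain ⟨t, ht⟩ : ∃ t : ℝ, t = |ρ| + |ρ'| + dist p p' := ⟨_, rfl⟩
  have hd := dist_nonneg (x := p) (y := p')
  have h1 : dist (p + t • e) p = t := by
    rw [dist_eq_norm, add_sub_cancel_left, norm_smul, he, mul_one, Real.norm_eq_abs,
      abs_of_nonneg (by rw [ht]; positivity)]
  refine ⟨p + t • e, ?_, ?_⟩
  · simp only [region, if_true, Set.mem_ofPred_eq]
    rw [h1, ht]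
    linarith [le_abs_self ρ, abs_nonneg ρ']
  · simp only [region, if_true, Set.mem_ofPred_eq]
    have h2 := dist_triangle (p + t • e) p' p
    rw [h1, dist_comm p' p] at h2
    linarith [le_abs_self ρ', abs_nonneg ρ]

/-- The regions are disjoint iff their caps are. -/
theorem region_disjoint_iff (p p' : P2) (ρ ρ' : ℝ) (hρ : 0 ≤ ρ) (hρ' : 0 ≤ ρ') (e e' : Bool) :
    Disjoint (region p ρ e) (region p' ρ' e') ↔
      Disjoint (cap (cc p ρ e) (rr p ρ e)) (cap (cc p' ρ' e') (rr p' ρ' e')) := by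
  constructor
  · intro h
    rw [Set.disjoint_left]
    intro y h1 h2
    have hy : ‖y‖ = 1 := h1.1
    rw [mem_cap y hy] at h1 h2
    have hy2 := norm3 y
    rw [hy] at hy2
    by_cases hz : y 2 = 1
    · have hy0 : y 0 = 0 := by nlinarith [sq_nonneg (y 0), sq_nonneg (y 1)]
      have hy1 : y 1 = 0 := by nlinarith [sq_nonneg (y 0), sq_nonneg (y 1)]
      rw [inner3, hy0, hy1, hz] at h1 h2
      simp only [nv, th, PiLp.toLp_apply, Matrix.cons_val] at h1 h2
      cases e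
      · simp only [sg1] at h1
        norm_num at h1
        linarith
      · cases e'
        · simp only [sg1] at h2
          norm_num at h2
          linarith
        · exact ext_meet p p' ρ ρ' h
    · have hz1 : 1 - y 2 ≠ 0 := fun h => hz (by linarith)
      obtain ⟨x, hx⟩ : ∃ x : P2, st x = y := by
        refine ⟨!₂[y 0 / (1 - y 2), y 1 / (1 - y 2)], ?_⟩
        have hden : (y 0 / (1 - y 2)) ^ 2 + (y 1 / (1 - y 2)) ^ 2 + 1 = 2 / (1 - y 2) := by
          field_simp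
          linear_combination -hy2
        have hden' : (y 0 / (1 - y 2)) ^ 2 + (y 1 / (1 - y 2)) ^ 2 - 1 =
            2 * y 2 / (1 - y 2) := by
          field_simp
          linear_combination -hy2
        ext i
        fin_cases i
        · simp only [st, PiLp.toLp_apply, Matrix.cons_val_zero, Matrix.cons_val_one,
            Fin.zero_eta]
          rw [hden]
          field_simp
        · simp only [st, PiLp.toLp_apply, Matrix.cons_val_zero, Matrix.cons_val_one,
            Fin.mk_one]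
          rw [hden]
          field_simp
        · simp only [st, PiLp.toLp_apply, Matrix.cons_val_zero, Matrix.cons_val_one,
            Matrix.cons_val, Fin.reduceFinMk]
          rw [hden, hden']
          field_simp
      rw [← hx] at h1 h2
      exact Set.disjoint_left.1 h ((mem_region x p ρ hρ e).2 h1) ((mem_region x p' ρ' hρ' e').2 h2)
  · intro h
    rw [Set.disjoint_left]
    intro x h1 h2
    rw [mem_region x p ρ hρ e, ← mem_cap (st x) (norm_st x)] at h1
    rw [mem_region x p' ρ' hρ' e', ← mem_cap (st x) (norm_st x)] at h2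
    exact Set.disjoint_left.1 h h1 h2

/-- Complements of intersection graphs of discs and exteriors of discs are complements of
spherical cap graphs. -/
theorem IsCoDiskExterior.isCoCap {V : Type} {G : SimpleGraph V} (h : IsCoDiskExterior G) :
    IsCoCap G := by
  obtain ⟨p, ρ, e, hρ, hadj⟩ := h
  refine ⟨fun v => cc (p v) (ρ v) (e v), fun v => rr (p v) (ρ v) (e v),
    fun v => ⟨norm_cc _ _ _, Real.arccos_nonneg _⟩, fun u v huv => ?_⟩
  rw [hadj u v huv]
  exact region_disjoint_iff _ _ _ _ (hρ u) (hρ v) _ _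

end Vale.Agent.P305.R2.H862
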