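import Vale.Agent.P305.R2.H735.Sphere
import Vale.Agent.P305.R2.H862.Stereo

/-! Discs and exteriors of discs of the plane are caps, in the form of `R2/H735`. -/

set_option autoImplicit false

namespace Vale.Agent.P305.R2.H862

theorem cap_eq (c : EuclideanSpace ℝ (Fin 3)) (r : ℝ) : cap c r = H735.cap c r := by
  ext x
  simp only [cap, H735.cap, Set.mem_ofPred_eq, InnerProductGeometry.angle_comm x c]

theorem IsCoCap.coCap {V : Type} {G : SimpleGraph V} (h : IsCoCap G) : H735.IsCoCap G := by
  obtain ⟨c, r, hc, hadj⟩ := h
  refine ⟨c, r, fun v => (hc v).1, fun v => (hc v).2, fun u v huv => ?_⟩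
  rw [hadj u v huv, cap_eq, cap_eq]

/-- Complements of intersection graphs of closed discs and closed exteriors of discs of the
Euclidean plane are complements of spherical cap graphs. -/
theorem IsCoDiskExterior.coCap {V : Type} {G : SimpleGraph V} (h : IsCoDiskExterior G) :
    H735.IsCoCap G :=
  h.isCoCap.coCap

end Vale.Agent.P305.R2.H862
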