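import Vale.Agent.P305.R2.H862.Parity
import Mathlib.Topology.Baire.CompleteMetrizable
import Mathlib.Topology.Baire.Lemmas

/-! Four points of the unit sphere and their angles; general position. -/

set_option autoImplicit false

namespace Vale.Agent.P305.R2.H862

open Vale.Agent.P305.H529 InnerProductGeometry
open scoped NNReal Topology

theorem lin_rel (a a' b b' : E3) :
    dt b b' a' • a + dt a a' b' • b = dt b b' a • a' + dt a a' b • b' := by
  ext i
  simp only [PiLp.add_apply, PiLp.smul_apply, smul_eq_mul, dt]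
  fin_cases i <;> simp <;> ring

/-- A positive combination of `a` and `b` which is a positive combination of `a'` and `b'`. -/
theorem cross {a a' b b' : E3} {p q p' q' : ℝ} (hp : 0 < p) (hq : 0 < q) (hp' : 0 < p')
    (hq' : 0 < q') (h : p • a + q • b = p' • a' + q' • b') (h0 : p • a + q • b ≠ 0) :
    angle a a' + angle b b' ≤ angle a b + angle a' b' := by
  obtain ⟨z, hz⟩ : ∃ z, z = p • a + q • b := ⟨_, rfl⟩
  have hz0 : z ≠ 0 := by rw [hz]; exact h0
  have m1 : z ∈ Submodule.span ℝ≥0 {a, b} := by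
    rw [Submodule.mem_span_pair]
    exact ⟨⟨p, hp.le⟩, ⟨q, hq.le⟩, by rw [hz]; rfl⟩
  have m2 : z ∈ Submodule.span ℝ≥0 {a', b'} := by
    rw [Submodule.mem_span_pair]
    exact ⟨⟨p', hp'.le⟩, ⟨q', hq'.le⟩, by rw [hz, h]; rfl⟩
  have e1 := angle_eq_angle_add_add_angle_add_of_mem_span hz0 m1
  have e2 := angle_eq_angle_add_add_angle_add_of_mem_span hz0 m2
  have t1 := angle_le_angle_add_angle a z a'
  have t2 := angle_le_angle_add_angle b z b'
  rw [angle_comm z a'] at t1
  rw [angle_comm b z] at t2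
  linarith

theorem ne_zero_of_dt {a b x : E3} (h : dt a b x ≠ 0) {p q : ℝ} (hp : 0 < p) :
    p • a + q • b ≠ 0 := by
  intro h0
  apply h
  have h1 : ∀ i : Fin 3, p * a i + q * b i = 0 := fun i => by
    have := congrArg (fun v : E3 => v i) h0
    simpa using this
  have e : p * dt a b x = 0 := by
    have h10 := h1 0
    have h11 := h1 1
    have h12 := h1 2
    simp only [dt]
    linear_combination (b 1 * x 2 - b 2 * x 1) * h10 - (b 0 * x 2 - b 2 * x 0) * h11 +
      (b 0 * x 1 - b 1 * x 0) * h12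
  exact (mul_eq_zero.1 e).resolve_left hp.ne'

/-- Four points of the sphere: if the great circle of each of the pairs `a, a'` and `b, b'` does not
separate the other pair, then one of the two other sums of angles is at least as large. -/
theorem quad {a a' b b' : E3} (h1 : dt a a' b ≠ 0) (h2 : dt a a' b' ≠ 0) (h3 : dt b b' a ≠ 0)
    (h4 : dt b b' a' ≠ 0) (s1 : sn a a' b = sn a a' b') (s2 : sn b b' a = sn b b' a') :
    angle a a' + angle b b' ≤ angle a b + angle a' b' ∨
      angle a a' + angle b b' ≤ angle a b' + angle a' b := by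
  have h := lin_rel a a' b b'
  have k1 : dt a b b' ≠ 0 := by rwa [← dt_cyc]
  have k2 : dt a b' b ≠ 0 := by
    rw [← dt_cyc, dt_swap]
    exact neg_ne_zero.2 h3
  unfold sn at s1 s2
  rcases lt_or_gt_of_ne h3 with l3 | l3
  · have l4 : dt b b' a' < 0 := (pos_false h4).1 (s2 ▸ (pos_false h3).2 l3)
    rcases lt_or_gt_of_ne h1 with l1 | l1
    · have l2 : dt a a' b' < 0 := (pos_false h2).1 (s1 ▸ (pos_false h1).2 l1)
      left
      refine cross (p := -dt b b' a') (q := -dt a a' b') (p' := -dt b b' a) (q' := -dt a a' b)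
        (by linarith) (by linarith) (by linarith) (by linarith) ?_
        (ne_zero_of_dt k1 (by linarith))
      rw [neg_smul, neg_smul, neg_smul, neg_smul, ← neg_add, ← neg_add, h]
    · have l2 : 0 < dt a a' b' := (pos_iff _).1 (s1 ▸ (pos_iff _).2 l1)
      right
      refine cross (p := -dt b b' a') (q := dt a a' b) (p' := -dt b b' a) (q' := dt a a' b')
        (by linarith) (by linarith) (by linarith) (by linarith) ?_
        (ne_zero_of_dt k2 (by linarith)) |>.trans' ?_
      · rw [neg_smul, neg_smul, neg_add_eq_sub, neg_add_eq_sub, sub_eq_sub_iff_add_eq_add,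
          add_comm, ← h, add_comm]
      · rw [angle_comm b' b]
  · have l4 : 0 < dt b b' a' := (pos_iff _).1 (s2 ▸ (pos_iff _).2 l3)
    rcases lt_or_gt_of_ne h1 with l1 | l1
    · have l2 : dt a a' b' < 0 := (pos_false h2).1 (s1 ▸ (pos_false h1).2 l1)
      right
      refine cross (p := dt b b' a') (q := -dt a a' b) (p' := dt b b' a) (q' := -dt a a' b')
        (by linarith) (by linarith) (by linarith) (by linarith) ?_
        (ne_zero_of_dt k2 (by linarith)) |>.trans' ?_
      · rw [neg_smul, neg_smul, ← sub_eq_add_neg, ← sub_eq_add_neg, sub_eq_sub_iff_add_eq_add]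
        exact h
      · rw [angle_comm b' b]
    · have l2 : 0 < dt a a' b' := (pos_iff _).1 (s1 ▸ (pos_iff _).2 l1)
      left
      exact cross l4 l2 l3 l1 h (ne_zero_of_dt k1 l4)

theorem isOpen_gp {ι : Type} (i j k : ι) : IsOpen {P : ι → E3 | dt (P i) (P j) (P k) ≠ 0} := by
  refine isOpen_ne_fun ?_ continuous_const
  unfold dt
  fun_prop

theorem dense_gp {ι : Type} [Fintype ι] (i j k : ι) (hij : i ≠ j) (hjk : j ≠ k) (hik : i ≠ k) :
    Dense {P : ι → E3 | dt (P i) (P j) (P k) ≠ 0} := by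
  classical
  rw [Metric.dense_iff]
  intro P ε hε
  let e : Fin 3 → E3 := fun m => EuclideanSpace.single m 1
  let Q : ℝ → ι → E3 := fun τ l => P l +
    if l = i then τ • e 0 else if l = j then τ • e 1 else if l = k then τ • e 2 else 0
  have hQi : ∀ τ, Q τ i = P i + τ • e 0 := fun τ => by simp [Q]
  have hQj : ∀ τ, Q τ j = P j + τ • e 1 := fun τ => by simp [Q, hij.symm]
  have hQk : ∀ τ, Q τ k = P k + τ • e 2 := fun τ => by simp [Q, hik.symm, hjk.symm]
  obtain ⟨A, B, hQ⟩ : ∃ A B : ℝ, ∀ τ, dt (Q τ i) (Q τ j) (Q τ k) =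
      τ ^ 3 + A * τ ^ 2 + B * τ + dt (P i) (P j) (P k) := by
    refine ⟨P i 0 + P j 1 + P k 2, P i 0 * P j 1 - P i 1 * P j 0 + (P i 0 * P k 2 - P i 2 * P k 0)
      + (P j 1 * P k 2 - P j 2 * P k 1), fun τ => ?_⟩
    rw [hQi, hQj, hQk]
    simp only [dt, e, PiLp.add_apply, PiLp.smul_apply, smul_eq_mul, PiLp.single_apply]
    simp
    ring
  have hD : ∀ τ, |τ| < ε → Q τ ∈ Metric.ball P ε := by
    intro τ hτ
    rw [Metric.mem_ball, dist_pi_lt_iff hε]
    intro l
    rw [dist_eq_norm]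
    simp only [Q, add_sub_cancel_left]
    split_ifs
    · simpa [e, norm_smul] using hτ
    · simpa [e, norm_smul] using hτ
    · simpa [e, norm_smul] using hτ
    · simpa using hε
  by_contra hcon
  have all : ∀ τ, |τ| < ε → dt (Q τ i) (Q τ j) (Q τ k) = 0 := by
    intro τ hτ
    by_contra hne
    exact hcon ⟨Q τ, hD _ hτ, hne⟩
  have hε5 : 0 < ε / 5 := by positivity
  have a1 := all (ε / 5) (by rw [abs_of_pos (by positivity)]; linarith)
  have a2 := all (2 * (ε / 5)) (by rw [abs_of_pos (by positivity)]; linarith)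
  have a3 := all (3 * (ε / 5)) (by rw [abs_of_pos (by positivity)]; linarith)
  have a4 := all (4 * (ε / 5)) (by rw [abs_of_pos (by positivity)]; linarith)
  rw [hQ] at a1 a2 a3 a4
  have h0 : (ε / 5) ^ 3 = 0 := by linear_combination (a4 - 3 * a3 + 3 * a2 - a1) / 6
  have : 0 < (ε / 5) ^ 3 := by positivity
  linarith

theorem exists_gp {ι : Type} [Fintype ι] (c : ι → E3) (U : Set (ι → E3)) (hU : U ∈ 𝓝 c) :
    ∃ P ∈ U, ∀ i j k, i ≠ j → j ≠ k → i ≠ k → dt (P i) (P j) (P k) ≠ 0 := by
  classical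
  have hd : Dense (⋂ t : {t : ι × ι × ι // t.1 ≠ t.2.1 ∧ t.2.1 ≠ t.2.2 ∧ t.1 ≠ t.2.2},
      {P : ι → E3 | dt (P t.1.1) (P t.1.2.1) (P t.1.2.2) ≠ 0}) := by
    refine dense_iInter_of_isOpen (fun t => isOpen_gp _ _ _) (fun t => ?_)
    exact dense_gp _ _ _ t.2.1 t.2.2.1 t.2.2.2
  obtain ⟨P, hPU, hP⟩ := hd.inter_nhds_nonempty hU
  refine ⟨P, hP, fun i j k hij hjk hik => ?_⟩
  rw [Set.mem_iInter] at hPU
  exact hPU ⟨(i, j, k), hij, hjk, hik⟩

end Vale.Agent.P305.R2.H862
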