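import Vale.Agent.P305.H529.Geo
import Mathlib.Analysis.InnerProductSpace.PiL2
import Mathlib.Geometry.Euclidean.Angle.Unoriented.TriangleInequality

/-! Closed walks in general position on the unit sphere: parity of crossings. -/

set_option autoImplicit false

namespace Vale.Agent.P305.R2.H862

open Finset Vale.Agent.P305.H529

/-- Three-dimensional Euclidean space. -/
abbrev E3 := EuclideanSpace ℝ (Fin 3)

/-- The determinant of three vectors. -/
def dt (u v w : E3) : ℝ :=
  u 0 * (v 1 * w 2 - v 2 * w 1) - u 1 * (v 0 * w 2 - v 2 * w 0) + u 2 * (v 0 * w 1 - v 1 * w 0)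

theorem dt_swap (u v w : E3) : dt v u w = -dt u v w := by
  simp only [dt]; ring

theorem dt_cyc (u v w : E3) : dt v w u = dt u v w := by
  simp only [dt]; ring

/-- The bit of a determinant. -/
noncomputable def sn (u v w : E3) : Bool := pos (dt u v w)

theorem sn_swap {u v w : E3} (h : dt u v w ≠ 0) : sn v u w = !sn u v w := by
  rw [sn, sn, dt_swap, pos_neg h]

/-- Does the arc `x y` cross the arc `p q` or its antipode? -/
noncomputable def cx (x y p q : E3) : Bool :=
  (sn p q x != sn p q y) && (sn x y p != sn x y q)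

/-- Is `x` inside the triangle `p q r` or inside its antipode? -/
noncomputable def isd (p q r x : E3) : Bool :=
  (sn p q x == sn q r x) && (sn q r x == sn r p x)

theorem cx_swap {x y p q : E3} (h1 : dt p q x ≠ 0) (h2 : dt p q y ≠ 0) :
    cx x y q p = cx x y p q := by
  simp only [cx, sn_swap h1, sn_swap h2]
  cases sn p q x <;> cases sn p q y <;> cases sn x y p <;> cases sn x y q <;> rfl

/-- The Boolean core. -/
theorem core : ∀ X1 X2 X3 Y1 Y2 Y3 Z1 Z2 Z3 : Bool,
    (((X2 == Z1) == (X3 == Z2)) && ((X3 == Z2) == (X1 == Z3))) = false →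
    (((Y2 == Z1) == (Y3 == Z2)) && ((Y3 == Z2) == (Y1 == Z3))) = false →
    xor (xor ((X1 != Y1) && (Z1 != Z2)) ((X2 != Y2) && (Z2 != Z3))) ((X3 != Y3) && (Z3 != Z1)) =
      xor (X1 == X2 && X2 == X3) (Y1 == Y2 && Y2 == Y3) := by
  decide

/-- An arc crosses the boundary of a spherical triangle and of its antipode together an odd number
of times iff exactly one of its ends is inside the triangle or its antipode. -/
theorem tri (x y p q r : E3)
    (hX1 : dt p q x ≠ 0) (hX2 : dt q r x ≠ 0) (hX3 : dt r p x ≠ 0)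
    (hY1 : dt p q y ≠ 0) (hY2 : dt q r y ≠ 0) (hY3 : dt r p y ≠ 0)
    (hZ1 : dt x y p ≠ 0) (hZ2 : dt x y q ≠ 0) (hZ3 : dt x y r ≠ 0) :
    xor (xor (cx x y p q) (cx x y q r)) (cx x y r p) = xor (isd p q r x) (isd p q r y) := by
  refine core (sn p q x) (sn q r x) (sn r p x) (sn p q y) (sn q r y) (sn r p y) (sn x y p)
    (sn x y q) (sn x y r) ?_ ?_
  · have := three (x := dt q r x * dt x y p) (y := dt r p x * dt x y q)
      (z := dt p q x * dt x y r) (mul_ne_zero hX2 hZ1) (mul_ne_zero hX3 hZ2)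
      (mul_ne_zero hX1 hZ3) (by simp only [dt]; ring)
    rwa [pos_mul hX2 hZ1, pos_mul hX3 hZ2, pos_mul hX1 hZ3] at this
  · have := three (x := dt q r y * dt x y p) (y := dt r p y * dt x y q)
      (z := dt p q y * dt x y r) (mul_ne_zero hY2 hZ1) (mul_ne_zero hY3 hZ2)
      (mul_ne_zero hY1 hZ3) (by simp only [dt]; ring)
    rwa [pos_mul hY2 hZ1, pos_mul hY3 hZ2, pos_mul hY1 hZ3] at this

section walks

variable {ι : Type} (P : ι → E3)
  (gp : ∀ i j k, i ≠ j → j ≠ k → i ≠ k → dt (P i) (P j) (P k) ≠ 0)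

include gp

/-- The number of crossings of a closed walk with an arc and its antipode depends only on the ends
of the arc, modulo two. -/
theorem walk_arc {s : ℕ} (a : ℕ → ι) (has : a s = a 0) (z u v : ι) (hz : ∀ i, a i ≠ z)
    (hza : ∀ i, i < s → a i ≠ a (i + 1)) (huz : u ≠ z) (hvz : v ≠ z) (huv : u ≠ v)
    (hu : ∀ i, a i ≠ u) (hv : ∀ i, a i ≠ v) :
    ∑ i ∈ range s, bt (cx (P u) (P v) (P (a i)) (P (a (i + 1)))) =
      ∑ i ∈ range s, bt (isd (P z) (P (a i)) (P (a (i + 1))) (P u)) +
      ∑ i ∈ range s, bt (isd (P z) (P (a i)) (P (a (i + 1))) (P v)) := by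
  have key : ∀ i ∈ range s, bt (cx (P u) (P v) (P (a i)) (P (a (i + 1)))) =
      (bt (isd (P z) (P (a i)) (P (a (i + 1))) (P u)) +
        bt (isd (P z) (P (a i)) (P (a (i + 1))) (P v))) +
      (bt (cx (P u) (P v) (P z) (P (a i))) +
        bt (cx (P u) (P v) (P z) (P (a (i + 1))))) := by
    intro i hi
    rw [mem_range] at hi
    have h1 := hza i hi
    have h := tri (P u) (P v) (P z) (P (a i)) (P (a (i + 1)))
      (gp _ _ _ (hz i).symm (hu i) huz.symm) (gp _ _ _ h1 (hu _) (hu _))
      (gp _ _ _ (hz _) huz.symm (hu _))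
      (gp _ _ _ (hz i).symm (hv i) hvz.symm) (gp _ _ _ h1 (hv _) (hv _))
      (gp _ _ _ (hz _) hvz.symm (hv _))
      (gp _ _ _ huv hvz huz) (gp _ _ _ huv (hv _).symm (hu _).symm)
      (gp _ _ _ huv (hv _).symm (hu _).symm)
    have h2 := congrArg bt h
    rw [bt_xor, bt_xor, bt_xor, cx_swap (x := P u) (y := P v) (p := P z)
      (q := P (a (i + 1))) (gp _ _ _ (hz _).symm (hu _) huz.symm)
      (gp _ _ _ (hz _).symm (hv _) hvz.symm)] at h2
    rw [← h2]
    have e1 := two_zero (bt (cx (P u) (P v) (P z) (P (a i))))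
    have e2 := two_zero (bt (cx (P u) (P v) (P z) (P (a (i + 1)))))
    linear_combination -e1 - e2
  rw [sum_congr rfl key, sum_add_distrib, sum_add_distrib,
    tele_closed (fun i => bt (cx (P u) (P v) (P z) (P (a i)))) s (by simp only [has]),
    add_zero]

/-- Two closed walks on the sphere in general position, every arc of the first one being related
to every arc of the second one by a separation by a great circle, cannot both have odd length. -/
theorem not_odd {s t : ℕ} (a b : ℕ → ι) (has : a s = a 0) (hbt : b t = b 0) (z : ι)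
    (hza : ∀ i, a i ≠ z) (hzb : ∀ i, b i ≠ z) (ha : ∀ i, i < s → a i ≠ a (i + 1))
    (hb : ∀ j, j < t → b j ≠ b (j + 1)) (hab : ∀ i j, a i ≠ b j)
    (sep : ∀ i j, i < s → j < t →
      ¬ (sn (P (a i)) (P (a (i + 1))) (P (b j)) = sn (P (a i)) (P (a (i + 1))) (P (b (j + 1))) ∧
        sn (P (b j)) (P (b (j + 1))) (P (a i)) = sn (P (b j)) (P (b (j + 1))) (P (a (i + 1))))) :
    ¬ (Odd s ∧ Odd t) := by
  rintro ⟨hs, ht⟩
  set α : ℕ → ℕ → ZMod 2 := fun i j => bt (sn (P (a i)) (P (a (i + 1))) (P (b j))) +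
    bt (sn (P (a i)) (P (a (i + 1))) (P (b (j + 1)))) with hα
  set β : ℕ → ℕ → ZMod 2 := fun i j => bt (sn (P (b j)) (P (b (j + 1))) (P (a i))) +
    bt (sn (P (b j)) (P (b (j + 1))) (P (a (i + 1)))) with hβ
  have h1 : ∀ i ∈ range s, ∀ j ∈ range t, (1 : ZMod 2) = α i j + β i j + α i j * β i j := by
    intro i hi j hj
    rw [mem_range] at hi hj
    have := sep i j hi hj
    simp only [hα, hβ]
    revert this
    generalize sn (P (a i)) (P (a (i + 1))) (P (b j)) = x1
    generalize sn (P (a i)) (P (a (i + 1))) (P (b (j + 1))) = x2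
    generalize sn (P (b j)) (P (b (j + 1))) (P (a i)) = x3
    generalize sn (P (b j)) (P (b (j + 1))) (P (a (i + 1))) = x4
    revert x1 x2 x3 x4
    decide
  have h2 : ∑ i ∈ range s, ∑ j ∈ range t, (1 : ZMod 2) = 0 := by
    rw [sum_congr rfl fun i hi => sum_congr rfl fun j hj => h1 i hi j hj]
    simp only [sum_add_distrib]
    have A : ∀ i ∈ range s, ∑ j ∈ range t, α i j = 0 := fun i _ =>
      tele_closed (fun j => bt (sn (P (a i)) (P (a (i + 1))) (P (b j)))) t
        (by simp only [hbt])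
    have B : ∑ i ∈ range s, ∑ j ∈ range t, β i j = 0 := by
      rw [sum_comm]
      exact sum_eq_zero fun j _ =>
        tele_closed (fun i => bt (sn (P (b j)) (P (b (j + 1))) (P (a i)))) s
          (by simp only [has])
    have C : ∑ i ∈ range s, ∑ j ∈ range t, α i j * β i j = 0 := by
      rw [sum_comm]
      have : ∀ j ∈ range t, ∑ i ∈ range s, α i j * β i j =
          ∑ i ∈ range s, bt (isd (P z) (P (a i)) (P (a (i + 1))) (P (b j))) +
          ∑ i ∈ range s, bt (isd (P z) (P (a i)) (P (a (i + 1))) (P (b (j + 1)))) := by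
        intro j hj
        rw [mem_range] at hj
        rw [← walk_arc P gp a has z (b j) (b (j + 1)) hza ha (hzb _) (hzb _) (hb j hj)
          (fun i => hab i _) (fun i => hab i _)]
        refine sum_congr rfl fun i _ => ?_
        rw [cx, bt_and, bt_bne, bt_bne]
      rw [sum_congr rfl this]
      exact tele_closed (fun j => ∑ i ∈ range s,
        bt (isd (P z) (P (a i)) (P (a (i + 1))) (P (b j)))) t (by simp only [hbt])
    rw [sum_eq_zero A, B, C]
    ring
  rw [sum_const, sum_const, card_range, card_range, smul_smul, nsmul_eq_mul, mul_one] at h2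
  have h3 : Odd (s * t) := hs.mul ht
  rw [ZMod.natCast_eq_zero_iff] at h2
  exact (Nat.not_even_iff_odd.2 h3) (even_iff_two_dvd.2 h2)

end walks

end Vale.Agent.P305.R2.H862
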